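import Vale.Agent.P082.Main

namespace Vale.Agent.Results.P082.Vanishing

/-- The Hochschild differential of a function of `n` variables, evaluated at `a`. -/
noncomputable def hoch {A : Type*} [Ring A] [Algebra ℂ A] (n : ℕ) (f : (Fin n → A) → A)
    (a : Fin (n + 1) → A) : A :=
  a 0 * f (Fin.tail a) +
    ∑ j : Fin n, (-1 : ℂ) ^ (j.val + 1) • f (Fin.contractNth j.castSucc (· * ·) a) +
    (-1 : ℂ) ^ (n + 1) • (f (Fin.init a) * a (Fin.last n))

/-- Kadison-Ringrose: every bounded cocycle of degree `n + 1` on a von Neumann algebra with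
values in itself is the coboundary of a bounded cochain of degree `n`. -/
theorem result {H : Type*} [NormedAddCommGroup H] [InnerProductSpace ℂ H] [CompleteSpace H]
    (M : VonNeumannAlgebra H) (n : ℕ)
    (f : ContinuousMultilinearMap ℂ (fun _ : Fin (n + 1) => M.toStarSubalgebra) M.toStarSubalgebra)
    (hf : ∀ a, hoch (n + 1) f a = 0) :
    ∃ g : ContinuousMultilinearMap ℂ (fun _ : Fin n => M.toStarSubalgebra) M.toStarSubalgebra,
      ∀ a, f a = hoch n g a :=
  Vale.Agent.P082.kadison_ringrose M n f hf

end Vale.Agent.Results.P082.Vanishing
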